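import Vale.Agent.P075.Finite
import Vale.Agent.P075.Analysis

/-! P075, Q2: the dyadic model of the triangular Hilbert form is bounded on `L³ × L³ × L³`. -/

open Vale.Agent.P075

namespace Vale.Agent.Results.P075.DyadicTriangular

/-- For all real bounded compactly supported measurable `F₀, F₁, F₂`: at every scale the series of
local forms converges absolutely, the sum of all `|L_I|` over finitely many scales is at most
`32 ∏ ‖F_v‖₃`, and `|Λ^d_{S,ε}(F₀,F₁,F₂)| ≤ 32 ∏ ‖F_v‖₃` for all finite `S` and `|ε_k| ≤ 1`. -/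
theorem result :
    ∀ F : Fin 3 → ℝ × ℝ → ℝ, (∀ v, IsTest (F v)) →
      (∀ k : ℤ, Summable fun n : Adm => |localForm k n F|) ∧
      (∀ S : Finset ℤ, ∑ k ∈ S, ∑' n : Adm, |localForm k n F| ≤ 32 * ∏ v, norm3 (F v)) ∧
      ∀ (S : Finset ℤ) (ε : ℤ → ℝ), (∀ k, |ε k| ≤ 1) →
        |dyadicForm S ε F| ≤ 32 * ∏ v, norm3 (F v) := by
  intro F hF
  have hC : (0 : ℝ) ≤ 32 := by norm_num
  exact ⟨summable_localForm hC finiteBound F hF, sum_scales_le hC finiteBound F hF,
    fun S ε hε => abs_dyadicForm_le hC finiteBound F hF S ε hε⟩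

end Vale.Agent.Results.P075.DyadicTriangular
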